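import Vale.Agent.P359.Spec
import Vale.Agent.P359.First

namespace Vale.Agent.Results.P359.Gap

open Vale.Agent.P359

theorem result :
    ∃ δ : ℝ, 0 < δ ∧ ∃ N0 : ℕ, ∀ N ≥ N0, ∀ ψ : Tens N (3 * (N - 1)), Antisym ψ →
      δ * defect (laughlin N) ψ ≤ reIp ψ (ham ψ) :=
  target_of_fock fock_gap

end Vale.Agent.Results.P359.Gap
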